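import Vale.Agent.P181.H303.Spec2

/-!
P181, row HW: degree bound for the form of a highest weight vector along a rank one direction.
-/

set_option autoImplicit false

open scoped TensorProduct

namespace Vale.Agent.P181.H183

open Vale.Agent.P181 Vale.Agent.P181.H280 Vale.Agent.P181.H303 Finset

/-- The functional `v ↦ ∑ u j v j`. -/
noncomputable def dot {n : ℕ} (u : EE n) : Module.Dual ℂ (Fin n → ℂ) :=
  ∑ j, u j • (LinearMap.proj j : (Fin n → ℂ) →ₗ[ℂ] ℂ)

lemma dot_apply {n : ℕ} (u : EE n) (v : Fin n → ℂ) : dot u v = ∑ j, u j * v j := by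
  simp [dot, LinearMap.sum_apply]

lemma evL_lin {n : ℕ} (u : EE n) : evL n (lin u) = fun v => ∑ j, u j * v j := by
  funext v
  rw [evL_apply, lin, map_sum]
  simp [smul_eq_mul]

lemma lin_pow {n : ℕ} (u : EE n) (b : ℕ) : lin u ^ b = ∏ _j : Fin b, lin u := by
  rw [Finset.prod_const, Finset.card_univ, Fintype.card_fin]

lemma lin_add {n : ℕ} (u v : EE n) : lin (u + v) = lin u + lin v := by
  simp only [lin, PiLp.add_apply, add_smul, Finset.sum_add_distrib]

lemma lin_smul {n : ℕ} (z : ℂ) (u : EE n) : lin (z • u) = z • lin u := by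
  simp only [lin, PiLp.smul_apply, smul_eq_mul, mul_smul, Finset.smul_sum]

/-- Borel matrices. -/
lemma act_borel {a b N : ℕ} (lam : Fin N → ℕ) (l : (Fin a → Fin b → (Fin N → ℂ)) →₀ ℂ)
    (hx : elOf l ∈ hwSpace lam (plethAct a b N)) (g : Matrix (Fin N) (Fin N) ℂ) (hg : IsBorel g)
    (u w : Fin a → EE N)
    (hw : ∀ i v, ∑ j, w i j * v j = ∑ j, u i j * (Matrix.toLin' g v) j) :
    formOf l (fun i => lin (w i) ^ b) =
      (∏ i, g i i ^ lam i) * formOf l (fun i => lin (u i) ^ b) := by
  have e1 : (fun i => lin (w i) ^ b) = fun i => ∏ _j : Fin b, lin (w i) := by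
    funext i; exact lin_pow _ _
  have e2 : (fun i => lin (u i) ^ b) = fun i => ∏ _j : Fin b, lin (u i) := by
    funext i; exact lin_pow _ _
  rw [e1, e2]
  have h1 := formOf_lin l (fun i _ => lin (w i)) (fun i _ => (dot (u i)) ∘ₗ Matrix.toLin' g)
    (fun i _ => by
      rw [evL_lin]
      funext v
      rw [LinearMap.comp_apply, dot_apply]
      exact hw i v)
  rw [h1, ← symEval_act (Matrix.toLin' g) (fun i _ => dot (u i)) (elOf l)]
  have h2 : symMap a (symMap b (Matrix.toLin' g)) (elOf l) =
      (∏ i, g i i ^ lam i) • elOf l := hx g hg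
  rw [h2, map_smul, smul_eq_mul]
  congr 1
  exact (formOf_lin l (fun i _ => lin (u i)) (fun i _ => dot (u i)) (fun i _ => by
    rw [evL_lin]
    funext v
    rw [dot_apply])).symm

/-- Polynomial dependence. -/
lemma poly_ex {a b N : ℕ} (F : MultilinearMap ℂ (fun _ : Fin a => MvPolynomial (Fin N) ℂ) ℂ)
    (v w : Fin a → EE N) :
    ∃ p : Polynomial ℂ, ∀ z : ℂ, F (fun i => lin (v i + z • w i) ^ b) = p.eval z := by
  classical
  let m : Fin a → ℕ → MvPolynomial (Fin N) ℂ := fun i k =>
    lin (v i) ^ k * lin (w i) ^ (b - k) * (b.choose k : MvPolynomial (Fin N) ℂ)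
  refine ⟨∑ r ∈ Fintype.piFinset (fun _ : Fin a => range (b + 1)),
    Polynomial.C (F (fun i => m i (r i))) * Polynomial.X ^ (∑ i, (b - r i)), ?_⟩
  intro z
  have h1 : (fun i => lin (v i + z • w i) ^ b) =
      fun i => ∑ k ∈ range (b + 1), z ^ (b - k) • m i k := by
    funext i
    rw [lin_add, lin_smul, add_pow]
    apply Finset.sum_congr rfl
    intro k _
    rw [smul_pow]
    simp only [m, mul_smul_comm, smul_mul_assoc]
  rw [h1, MultilinearMap.map_sum_finset, Polynomial.eval_finsetSum]
  apply Finset.sum_congr rfl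
  intro r _
  rw [MultilinearMap.map_smul_univ, Polynomial.eval_mul, Polynomial.eval_C, Polynomial.eval_pow,
    Polynomial.eval_X, smul_eq_mul, Finset.prod_pow_eq_pow_sum, mul_comm]

/-- Degree. -/
lemma deg_le {L : ℕ} (P r : Polynomial ℂ)
    (h : ∀ z : ℂ, z ≠ 0 → P.eval z = z ^ L * r.eval (1 - 1 / z)) : P.natDegree ≤ L := by
  set R : Polynomial ℂ := r.comp (1 - Polynomial.X) with hR
  have hRe : ∀ y : ℂ, R.eval y = r.eval (1 - y) := by
    intro y
    rw [hR, Polynomial.eval_comp]
    simp
  have h2 : Polynomial.X ^ R.natDegree * P = Polynomial.X ^ L * R.reverse := by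
    apply Polynomial.eq_of_infinite_eval_eq
    apply Set.Infinite.mono (s := {(0 : ℂ)}ᶜ)
    · intro z hz
      have hz0 : z ≠ 0 := hz
      have h3 : R.reverse.eval z = R.eval (1 / z) * z ^ R.natDegree := by
        let _ : Invertible (z⁻¹) := invertibleOfNonzero (inv_ne_zero hz0)
        have h4 := Polynomial.eval₂_reverse_mul_pow (RingHom.id ℂ) (z⁻¹) R
        rw [invOf_eq_inv, inv_inv] at h4
        change R.reverse.eval z * (z⁻¹) ^ R.natDegree = R.eval (z⁻¹) at h4
        rw [one_div, ← h4, mul_assoc, ← mul_pow, inv_mul_cancel₀ hz0, one_pow, mul_one]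
      rw [Set.mem_ofPred_eq, Polynomial.eval_mul, Polynomial.eval_mul, Polynomial.eval_pow,
        Polynomial.eval_pow, Polynomial.eval_X, h3, hRe, h z hz0]
      ring
    · exact (Set.finite_singleton (0 : ℂ)).infinite_compl
  by_cases hP : P = 0
  · rw [hP]; simp
  have h3 : (Polynomial.X ^ R.natDegree * P).natDegree = R.natDegree + P.natDegree := by
    rw [Polynomial.natDegree_mul (pow_ne_zero _ Polynomial.X_ne_zero) hP,
      Polynomial.natDegree_X_pow]
  have h4 : (Polynomial.X ^ L * R.reverse).natDegree ≤ L + R.natDegree := by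
    refine Polynomial.natDegree_mul_le.trans ?_
    rw [Polynomial.natDegree_X_pow]
    have := Polynomial.reverse_natDegree_le R
    omega
  rw [h2] at h3
  omega

theorem rowHW : RowHW := by
  intro a b n lam l hx u e _ he0
  obtain ⟨P, hP⟩ := poly_ex (b := b) (formOf l) (fun i => u i - (inner ℂ e (u i)) • e)
    (fun i => (inner ℂ e (u i)) • e)
  obtain ⟨r, hr⟩ := poly_ex (b := b) (formOf l) u
    (fun i => (inner ℂ e (u i) - u i 0 / e 0) • e)
  have hP2 : ∀ z : ℂ, formOf l (fun i => lin (u i + ((z - 1) * inner ℂ e (u i)) • e) ^ b) =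
      P.eval z := by
    intro z
    rw [← hP z]
    congr 1
    funext i
    congr 2
    module
  refine ⟨P, ?_, fun z _ => hP2 z⟩
  apply deg_le P r
  intro z hz
  rw [← hP2 z, ← hr (1 - 1 / z)]
  let g : Matrix (Fin (n + 1)) (Fin (n + 1)) ℂ := fun i j =>
    (if i = j then 1 else 0) + (if i = 0 then (z - 1) * e j / e 0 else 0)
  have hg0 : g 0 0 = z := by
    simp only [g, if_true]
    field_simp
    ring
  have hgi : ∀ i, i ≠ 0 → g i i = 1 := by
    intro i hi
    simp only [g]
    rw [if_pos trivial, if_neg hi, add_zero]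
  have hg : IsBorel g := by
    constructor
    · intro i j hij
      simp only [g]
      rw [if_neg (ne_of_gt hij), if_neg (by
        rintro rfl
        exact absurd hij (Fin.not_lt_zero j)), add_zero]
    · intro i
      by_cases hi : i = 0
      · subst hi
        rw [hg0]
        exact hz
      · rw [hgi i hi]
        exact one_ne_zero
  have hprod : ∏ i, g i i ^ lam i = z ^ lam 0 := by
    rw [Finset.prod_eq_single 0]
    · rw [hg0]
    · intro i _ hi
      rw [hgi i hi, one_pow]
    · intro h
      exact absurd (Finset.mem_univ _) h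
  rw [← hprod]
  apply act_borel lam l hx g hg
  intro i v
  have h1 : ∀ j, (Matrix.toLin' g v) j =
      v j + (if j = 0 then (z - 1) / e 0 * ∑ k, e k * v k else 0) := by
    intro j
    rw [Matrix.toLin'_apply, Matrix.mulVec, dotProduct]
    simp only [g]
    by_cases hj : j = 0
    · simp only [hj, if_true, add_mul, Finset.sum_add_distrib, ite_mul, one_mul, zero_mul,
        Finset.sum_ite_eq, Finset.mem_univ]
      congr 1
      rw [Finset.mul_sum]
      apply Finset.sum_congr rfl
      intro k _
      ring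
    · simp only [hj, if_false, add_zero, ite_mul, one_mul, zero_mul,
        Finset.sum_ite_eq, Finset.mem_univ, if_true]
  simp only [h1, mul_add, mul_ite, mul_zero, Finset.sum_add_distrib, Finset.sum_ite_eq',
    Finset.mem_univ, if_true, PiLp.add_apply, PiLp.smul_apply, smul_eq_mul]
  rw [Finset.mul_sum, Finset.mul_sum, ← Finset.sum_add_distrib]
  apply Finset.sum_congr rfl
  intro k _
  field_simp
  ring

end Vale.Agent.P181.H183
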